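import Vale.Agent.Lib.P356.Defs

namespace Vale.Agent.Lib.P356

theorem dist1_triangle {L : ℕ} (x y z : Site L) : dist1 x z ≤ dist1 x y + dist1 y z := by
  simp only [dist1, Nat.dist]
  omega

theorem dist1_self {L : ℕ} (x : Site L) : dist1 x x = 0 := by
  simp [dist1, Nat.dist]

/-- one unit step from `y` toward `z` -/
theorem exists_step_toward {L : ℕ} (y z : Site L) (d : ℕ) (hd : dist1 y z = d + 1) :
    ∃ y' : Site L, dist1 y y' = 1 ∧ dist1 y' z = d := by
  obtain ⟨⟨a, ha⟩, ⟨c, hc⟩⟩ := y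
  obtain ⟨⟨b, hb⟩, ⟨e, he⟩⟩ := z
  simp only [dist1, Nat.dist] at hd
  rcases Nat.lt_trichotomy a b with hab | hab | hab
  · refine ⟨(⟨a + 1, by omega⟩, ⟨c, hc⟩), ?_, ?_⟩ <;> simp only [dist1, Nat.dist] <;> omega
  · rcases Nat.lt_trichotomy c e with hce | hce | hce
    · refine ⟨(⟨a, ha⟩, ⟨c + 1, by omega⟩), ?_, ?_⟩ <;> simp only [dist1, Nat.dist] <;> omega
    · exfalso; omega
    · refine ⟨(⟨a, ha⟩, ⟨c - 1, by omega⟩), ?_, ?_⟩ <;> simp only [dist1, Nat.dist] <;> omega
  · refine ⟨(⟨a - 1, by omega⟩, ⟨c, hc⟩), ?_, ?_⟩ <;> simp only [dist1, Nat.dist] <;> omega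

theorem exists_edge_toward {L : ℕ} (A : Finset (Site L)) :
    ∀ d : ℕ, ∀ y z : Site L, y ∈ A → z ∉ A → dist1 y z = d →
      ∃ p ∈ edgeBoundary A, dist1 y p.1 + 1 ≤ d := by
  intro d
  induction d with
  | zero =>
    intro y z hy hz hd
    exfalso
    have hyz : y = z := by
      simp only [dist1, Nat.dist] at hd
      refine Prod.ext (Fin.ext ?_) (Fin.ext ?_) <;> omega
    exact hz (hyz ▸ hy)
  | succ d ih =>
    intro y z hy hz hd
    obtain ⟨y', h1, h2⟩ := exists_step_toward y z d hd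
    by_cases hy' : y' ∈ A
    · obtain ⟨p, hp, hpd⟩ := ih y' z hy' hz h2
      refine ⟨p, hp, ?_⟩
      have := dist1_triangle y y' p.1
      omega
    · refine ⟨(y, y'), ?_, ?_⟩
      · simp only [edgeBoundary, Finset.mem_filter, Finset.mem_univ, true_and]
        exact ⟨hy, hy', h1⟩
      · simp only [dist1_self]
        omega

theorem card_ball_le {L : ℕ} (u : Site L) (k : ℕ) :
    (Finset.univ.filter fun y : Site L => dist1 y u ≤ k).card ≤ (2 * k + 1) ^ 2 := by
  have hinj : Set.InjOn (fun y : Site L => ((y.1 : ℕ), (y.2 : ℕ)))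
      ((Finset.univ.filter fun y : Site L => dist1 y u ≤ k : Finset (Site L)) : Set (Site L)) := by
    intro a _ b _ h
    simp only [Prod.mk.injEq] at h
    exact Prod.ext (Fin.ext h.1) (Fin.ext h.2)
  have hmaps : ∀ y ∈ (Finset.univ.filter fun y : Site L => dist1 y u ≤ k),
      (fun y : Site L => ((y.1 : ℕ), (y.2 : ℕ))) y ∈
        (Finset.Icc ((u.1 : ℕ) - k) ((u.1 : ℕ) + k)) ×ˢ
          (Finset.Icc ((u.2 : ℕ) - k) ((u.2 : ℕ) + k)) := by
    intro y hy
    rw [Finset.mem_filter] at hy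
    simp only [Finset.mem_univ, true_and, dist1, Nat.dist] at hy
    simp only [Finset.mem_product, Finset.mem_Icc]
    omega
  calc (Finset.univ.filter fun y : Site L => dist1 y u ≤ k).card
      ≤ ((Finset.Icc ((u.1 : ℕ) - k) ((u.1 : ℕ) + k)) ×ˢ
          (Finset.Icc ((u.2 : ℕ) - k) ((u.2 : ℕ) + k))).card :=
        Finset.card_le_card_of_injOn _ hmaps hinj
    _ = (Finset.Icc ((u.1 : ℕ) - k) ((u.1 : ℕ) + k)).card *
          (Finset.Icc ((u.2 : ℕ) - k) ((u.2 : ℕ) + k)).card := Finset.card_product _ _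
    _ ≤ (2 * k + 1) * (2 * k + 1) := by
        apply Nat.mul_le_mul
        · rw [Nat.card_Icc]; omega
        · rw [Nat.card_Icc]; omega
    _ = (2 * k + 1) ^ 2 := by ring

theorem card_inner_layer_le {L : ℕ} (R : ℕ) (A : Finset (Site L)) :
    ((Finset.univ.filter fun y : Site L => y ∈ A ∧ ∃ z, z ∉ A ∧ dist1 y z ≤ R).card : ℝ)
      ≤ (2 * (R : ℝ) - 1) ^ 2 * ((edgeBoundary A).card : ℝ) := by
  rcases Nat.eq_zero_or_pos R with rfl | hR
  · have hempty : (Finset.univ.filter fun y : Site L => y ∈ A ∧ ∃ z, z ∉ A ∧ dist1 y z ≤ 0) = ∅ := by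
      apply Finset.filter_eq_empty_iff.mpr
      rintro y - ⟨hy, z, hz, hd⟩
      have hyz : y = z := by
        simp only [dist1, Nat.dist] at hd
        refine Prod.ext (Fin.ext ?_) (Fin.ext ?_) <;> omega
      exact hz (hyz ▸ hy)
    rw [hempty]
    simp only [Finset.card_empty, Nat.cast_zero]
    positivity
  · have hsub : (Finset.univ.filter fun y : Site L => y ∈ A ∧ ∃ z, z ∉ A ∧ dist1 y z ≤ R) ⊆
        (edgeBoundary A).biUnion
          fun p => Finset.univ.filter fun y : Site L => dist1 y p.1 ≤ R - 1 := by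
      intro y hy
      simp only [Finset.mem_filter, Finset.mem_univ, true_and] at hy
      obtain ⟨hyA, z, hz, hd⟩ := hy
      obtain ⟨p, hp, hpd⟩ := exists_edge_toward A (dist1 y z) y z hyA hz rfl
      simp only [Finset.mem_biUnion, Finset.mem_filter, Finset.mem_univ, true_and]
      exact ⟨p, hp, by omega⟩
    have hnat : (Finset.univ.filter fun y : Site L => y ∈ A ∧ ∃ z, z ∉ A ∧ dist1 y z ≤ R).card
        ≤ (edgeBoundary A).card * (2 * (R - 1) + 1) ^ 2 := by
      calc (Finset.univ.filter fun y : Site L => y ∈ A ∧ ∃ z, z ∉ A ∧ dist1 y z ≤ R).card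
          ≤ ((edgeBoundary A).biUnion
              fun p => Finset.univ.filter fun y : Site L => dist1 y p.1 ≤ R - 1).card :=
            Finset.card_le_card hsub
        _ ≤ ∑ p ∈ edgeBoundary A,
              (Finset.univ.filter fun y : Site L => dist1 y p.1 ≤ R - 1).card :=
            Finset.card_biUnion_le
        _ ≤ ∑ _p ∈ edgeBoundary A, (2 * (R - 1) + 1) ^ 2 :=
            Finset.sum_le_sum fun p _ => card_ball_le p.1 (R - 1)
        _ = (edgeBoundary A).card * (2 * (R - 1) + 1) ^ 2 := by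
            rw [Finset.sum_const, smul_eq_mul]
    have hcast : ((2 * (R - 1) + 1 : ℕ) : ℝ) = 2 * (R : ℝ) - 1 := by
      have h1 : 1 ≤ R := hR
      push_cast [Nat.cast_sub h1]
      ring
    calc ((Finset.univ.filter fun y : Site L => y ∈ A ∧ ∃ z, z ∉ A ∧ dist1 y z ≤ R).card : ℝ)
        ≤ (((edgeBoundary A).card * (2 * (R - 1) + 1) ^ 2 : ℕ) : ℝ) := by exact_mod_cast hnat
      _ = (2 * (R : ℝ) - 1) ^ 2 * ((edgeBoundary A).card : ℝ) := by
          rw [Nat.cast_mul, Nat.cast_pow, hcast]; ring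

end Vale.Agent.Lib.P356
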