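import Mathlib

namespace Vale.Agent.Lib.P356

open Matrix

/-- The sites of the box `Λ_L = {1,…,L}²`. -/
abbrev Site (L : ℕ) := Fin L × Fin L

/-- The `ℓ¹` distance between two sites. -/
def dist1 {L : ℕ} (x y : Site L) : ℕ := Nat.dist x.1 y.1 + Nat.dist x.2 y.2

/-- The basis configurations: one of `q` levels at every site.  Vectors of the Hilbert space
`⊗_x ℂ^q` are functions `Config L q → ℂ`, operators are matrices indexed by configurations. -/
abbrev Config (L q : ℕ) := Site L → Fin q

/-- `h` acts on the tensor factors in `X` and as the identity elsewhere: `h = k ⊗ 1`. -/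
def ActsOn {L q : ℕ} (X : Finset (Site L)) (h : Matrix (Config L q) (Config L q) ℂ) : Prop :=
  ∃ k : Matrix (X → Fin q) (X → Fin q) ℂ, ∀ σ τ : Config L q,
    h σ τ = if ∀ x, x ∉ X → σ x = τ x then k (fun x => σ x) (fun x => τ x) else 0

/-- The configuration equal to `a` on `A` and to `b` off `A`. -/
def glue {L q : ℕ} (A : Finset (Site L)) (a : {x // x ∈ A} → Fin q)
    (b : {x // x ∉ A} → Fin q) : Config L q :=
  fun x => if h : x ∈ A then a ⟨x, h⟩ else b ⟨x, h⟩

/-- The reduced density matrix `ρ_A` of the vector `Ω` on the region `A`: the trace of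
`|Ω⟩⟨Ω|` over the sites outside `A`. -/
def reducedDensity {L q : ℕ} (A : Finset (Site L)) (Ω : Config L q → ℂ) :
    Matrix ({x // x ∈ A} → Fin q) ({x // x ∈ A} → Fin q) ℂ :=
  fun a a' => ∑ b : {x // x ∉ A} → Fin q, Ω (glue A a b) * star (Ω (glue A a' b))

/-- The edge boundary of `A`, as the set of pairs `(x, y)` of neighbouring sites with `x ∈ A`
and `y ∉ A` (one pair for every boundary edge). -/
def edgeBoundary {L : ℕ} (A : Finset (Site L)) : Finset (Site L × Site L) :=
  Finset.univ.filter fun p => p.1 ∈ A ∧ p.2 ∉ A ∧ dist1 p.1 p.2 = 1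

end Vale.Agent.Lib.P356
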