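import Vale.Agent.Lib.P356.Defs

namespace Vale.Agent.Lib.P356

open Matrix

open scoped ComplexOrder

theorem entropy_mul_conjTranspose_le {m n : Type} [Fintype m] [DecidableEq m] [Fintype n]
    [DecidableEq n] (M : Matrix m n ℂ) (hnorm : ∑ i, ∑ j, ‖M i j‖ ^ 2 = 1) (r : ℕ)
    (hr : M.rank ≤ r) :
    ∃ h : (M * Mᴴ).IsHermitian, ∑ i, Real.negMulLog (h.eigenvalues i) ≤ Real.log r := by
  classical
  have h : (M * Mᴴ).IsHermitian := isHermitian_mul_conjTranspose_self M
  refine ⟨h, ?_⟩
  have hpsd : (M * Mᴴ).PosSemidef := posSemidef_self_mul_conjTranspose M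
  have hnn : ∀ i, 0 ≤ h.eigenvalues i := fun i => hpsd.eigenvalues_nonneg i
  -- the trace
  have htr : (M * Mᴴ).trace = 1 := by
    have h1 : (M * Mᴴ).trace = ∑ i, ∑ j, ((‖M i j‖ ^ 2 : ℝ) : ℂ) := by
      simp only [Matrix.trace, Matrix.diag_apply, Matrix.mul_apply, Matrix.conjTranspose_apply]
      refine Finset.sum_congr rfl fun i _ => Finset.sum_congr rfl fun j _ => ?_
      rw [Complex.star_def, Complex.mul_conj, Complex.normSq_eq_norm_sq]
    rw [h1]
    have h2 : ((∑ i, ∑ j, ‖M i j‖ ^ 2 : ℝ) : ℂ) = 1 := by rw [hnorm]; simp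
    rw [← h2]
    push_cast
    rfl
  have hsum : ∑ i, h.eigenvalues i = 1 := by
    have h1 := h.trace_eq_sum_eigenvalues
    rw [htr] at h1
    have h2 : ((∑ i, h.eigenvalues i : ℝ) : ℂ) = 1 := by
      rw [h1]
      push_cast
      rfl
    exact_mod_cast h2
  -- the rank
  have hrank : Fintype.card {i // h.eigenvalues i ≠ 0} ≤ r := by
    rw [← h.rank_eq_card_non_zero_eigs, rank_self_mul_conjTranspose]
    exact hr
  have hcard : (Finset.univ.filter fun i => h.eigenvalues i ≠ 0).card ≤ r := by
    rw [← Fintype.card_subtype]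
    exact hrank
  have hr1 : 1 ≤ r := by
    by_contra hcon
    have hr0 : r = 0 := by omega
    rw [hr0, Nat.le_zero, Finset.card_eq_zero, Finset.filter_eq_empty_iff] at hcard
    have h0 : ∑ i, h.eigenvalues i = 0 := by
      refine Finset.sum_eq_zero fun i _ => ?_
      have := hcard (Finset.mem_univ i)
      simpa using this
    rw [h0] at hsum
    exact zero_ne_one hsum
  have hrpos : (0 : ℝ) < r := by exact_mod_cast hr1
  -- pointwise bound
  have hpt : ∀ i, Real.negMulLog (h.eigenvalues i) - h.eigenvalues i * Real.log r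
      ≤ (if h.eigenvalues i ≠ 0 then (1 : ℝ) / r else 0) - h.eigenvalues i := by
    intro i
    by_cases hi : h.eigenvalues i = 0
    · simp [hi]
    · have hpos : 0 < h.eigenvalues i := lt_of_le_of_ne (hnn i) (Ne.symm hi)
      rw [if_pos hi, Real.negMulLog]
      have h1 : Real.log (1 / (r * h.eigenvalues i)) ≤ 1 / (r * h.eigenvalues i) - 1 :=
        Real.log_le_sub_one_of_pos (by positivity)
      have h2 : Real.log (1 / (r * h.eigenvalues i))
          = - (Real.log r + Real.log (h.eigenvalues i)) := by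
        rw [one_div, Real.log_inv, Real.log_mul hrpos.ne' hpos.ne']
      rw [h2] at h1
      have h3 : h.eigenvalues i * (1 / (r * h.eigenvalues i) - 1)
          = 1 / r - h.eigenvalues i := by
        field_simp
      have h4 := mul_le_mul_of_nonneg_left h1 hpos.le
      rw [h3] at h4
      linarith
  have htotal := Finset.sum_le_sum (fun i (_ : i ∈ Finset.univ) => hpt i)
  rw [Finset.sum_sub_distrib, Finset.sum_sub_distrib, ← Finset.sum_mul, hsum,
    Finset.sum_ite, Finset.sum_const, Finset.sum_const_zero, add_zero, nsmul_eq_mul] at htotal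
  have hc : ((Finset.univ.filter fun i => h.eigenvalues i ≠ 0).card : ℝ) * (1 / r) ≤ 1 := by
    have : ((Finset.univ.filter fun i => h.eigenvalues i ≠ 0).card : ℝ) ≤ r := by
      exact_mod_cast hcard
    rw [mul_one_div, div_le_one hrpos]
    exact this
  linarith

end Vale.Agent.Lib.P356
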