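import Mathlib

namespace Vale.Agent.Lib.P356

open Matrix Polynomial

open scoped ComplexOrder

variable {n : Type} [Fintype n] [DecidableEq n]

/-- Induction principle for polynomials evaluated at a matrix. -/
theorem aeval_induction (P : Matrix n n ℂ → Prop) (h1 : P 1)
    (hadd : ∀ a b, P a → P b → P (a + b)) (hmul : ∀ a b, P a → P b → P (a * b))
    (hsmul : ∀ (c : ℂ) a, P a → P (c • a)) (K : Matrix n n ℂ) (hK : P K) (p : ℂ[X]) :
    P (aeval K p) := by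
  induction p using Polynomial.induction_on with
  | C a =>
    rw [aeval_C, Algebra.algebraMap_eq_smul_one]
    exact hsmul a 1 h1
  | add p q hp hq => rw [map_add]; exact hadd _ _ hp hq
  | monomial k a ih =>
    rw [pow_succ, ← mul_assoc, map_mul, aeval_X]
    exact hmul _ _ ih hK

omit [DecidableEq n] in
theorem herm_sq_mulVec_eq_zero {N : Matrix n n ℂ} (hN : N.IsHermitian) (u : n → ℂ)
    (h : N *ᵥ (N *ᵥ u) = 0) : N *ᵥ u = 0 := by
  have h1 : star (N *ᵥ u) ⬝ᵥ (N *ᵥ u) = 0 := by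
    rw [star_mulVec, ← dotProduct_mulVec, hN.eq, h, dotProduct_zero]
  exact dotProduct_star_self_eq_zero.1 h1

theorem herm_pow_mulVec_eq_zero {N : Matrix n n ℂ} (hN : N.IsHermitian) :
    ∀ (m : ℕ) (w : n → ℂ), (N ^ m) *ᵥ w = 0 → N *ᵥ w = 0
  | 0, w, h => by
    rw [pow_zero, one_mulVec] at h
    rw [h, mulVec_zero]
  | 1, w, h => by simpa using h
  | (m + 2), w, h => by
    have h1 : N *ᵥ (N *ᵥ ((N ^ m) *ᵥ w)) = 0 := by
      have h0 : N * N * N ^ m = N ^ (m + 2) := by rw [← pow_two, ← pow_add, add_comm]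
      rw [mulVec_mulVec, mulVec_mulVec, h0]
      exact h
    have h2 := herm_sq_mulVec_eq_zero hN _ h1
    refine herm_pow_mulVec_eq_zero hN (m + 1) w ?_
    rw [pow_succ', ← mulVec_mulVec]
    exact h2

omit [DecidableEq n] in
theorem eigenvalue_real {K : Matrix n n ℂ} (hK : K.IsHermitian) {Ω : n → ℂ} {κ : ℂ}
    (hΩ : K *ᵥ Ω = κ • Ω) (h0 : Ω ≠ 0) : star κ = κ := by
  have h1 : star Ω ⬝ᵥ (K *ᵥ Ω) = κ * (star Ω ⬝ᵥ Ω) := by
    rw [hΩ, dotProduct_smul, smul_eq_mul]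
  have h2 : star (star Ω ⬝ᵥ (K *ᵥ Ω)) = star Ω ⬝ᵥ (K *ᵥ Ω) := by
    rw [← star_dotProduct, star_mulVec, ← dotProduct_mulVec, hK.eq]
  have h3 : star (star Ω ⬝ᵥ Ω) = star Ω ⬝ᵥ Ω := by
    rw [← star_dotProduct]
  have h4 : star Ω ⬝ᵥ Ω ≠ 0 := fun h => h0 (dotProduct_star_self_eq_zero.1 h)
  rw [h1, star_mul', h3] at h2
  exact mul_right_cancel₀ h4 h2

theorem aeval_mulVec_eigen {K : Matrix n n ℂ} {Ω : n → ℂ} {κ : ℂ} (hΩ : K *ᵥ Ω = κ • Ω)
    (p : ℂ[X]) : aeval K p *ᵥ Ω = p.eval κ • Ω := by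
  induction p using Polynomial.induction_on with
  | C a =>
    rw [aeval_C, Algebra.algebraMap_eq_smul_one, smul_mulVec, one_mulVec, eval_C]
  | add p q hp hq => rw [map_add, add_mulVec, hp, hq, eval_add, add_smul]
  | monomial k a ih =>
    rw [pow_succ, ← mul_assoc, map_mul, aeval_X, ← mulVec_mulVec, hΩ, mulVec_smul, ih,
      eval_mul_X, smul_smul, mul_comm]

theorem exists_spectral_poly {K : Matrix n n ℂ} (hK : K.IsHermitian) {Ω : n → ℂ} {κ : ℂ}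
    (hΩ : K *ᵥ Ω = κ • Ω) (h0 : Ω ≠ 0) :
    ∃ p : ℂ[X], aeval K p *ᵥ Ω = Ω ∧
      ∀ u, K *ᵥ (aeval K p *ᵥ u) = κ • (aeval K p *ᵥ u) := by
  have hκ := eigenvalue_real hK hΩ h0
  have hχ : K.charpoly ≠ 0 := K.charpoly_monic.ne_zero
  obtain ⟨g, hg, hnd⟩ :=
    Polynomial.exists_eq_pow_rootMultiplicity_mul_and_not_dvd K.charpoly hχ κ
  have hgκ : g.eval κ ≠ 0 := fun h => hnd (Polynomial.dvd_iff_isRoot.2 h)
  refine ⟨C (g.eval κ)⁻¹ * g, ?_, ?_⟩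
  · rw [aeval_mulVec_eigen hΩ, eval_mul, eval_C, inv_mul_cancel₀ hgκ, one_smul]
  · intro u
    have hN : (K - κ • (1 : Matrix n n ℂ)).IsHermitian := by
      refine hK.sub ?_
      unfold Matrix.IsHermitian
      rw [conjTranspose_smul, conjTranspose_one, hκ]
    have h1 : aeval K ((X - C κ) ^ K.charpoly.rootMultiplicity κ * g) = 0 := by
      rw [← hg]; exact Matrix.aeval_self_charpoly K
    have h2 : (K - κ • (1 : Matrix n n ℂ)) ^ K.charpoly.rootMultiplicity κ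
        * aeval K (C (g.eval κ)⁻¹ * g) = 0 := by
      rw [map_mul, map_pow, map_sub, aeval_X, aeval_C, Algebra.algebraMap_eq_smul_one] at h1
      rw [map_mul, aeval_C, Algebra.algebraMap_eq_smul_one, smul_mul_assoc, one_mul,
        mul_smul_comm, h1, smul_zero]
    have key : ((K - κ • (1 : Matrix n n ℂ)) ^ K.charpoly.rootMultiplicity κ)
        *ᵥ (aeval K (C (g.eval κ)⁻¹ * g) *ᵥ u) = 0 := by
      rw [mulVec_mulVec, h2, zero_mulVec]
    have h3 := herm_pow_mulVec_eq_zero hN _ _ key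
    rw [sub_mulVec, smul_mulVec, one_mulVec, sub_eq_zero] at h3
    exact h3

theorem exists_product_form {K1 K2 : Matrix n n ℂ} (h1 : K1.IsHermitian) (h2 : K2.IsHermitian)
    (hc : K1 * K2 = K2 * K1) {E : ℂ} {Ω : n → ℂ} (hΩ : (K1 + K2) *ᵥ Ω = E • Ω) (h0 : Ω ≠ 0)
    (hsimple : ∀ ψ : n → ℂ, (K1 + K2) *ᵥ ψ = E • ψ → ∃ c : ℂ, ψ = c • Ω) :
    ∃ (p1 p2 : ℂ[X]) (σ : n) (c : ℂ),
      Ω = aeval K1 p1 *ᵥ (c • fun τ => aeval K2 p2 τ σ) := by
  -- `Ω` is an eigenvector of `K1` and of `K2`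
  obtain ⟨e1, he1⟩ : ∃ e1 : ℂ, K1 *ᵥ Ω = e1 • Ω := by
    apply hsimple
    rw [mulVec_mulVec, ← mulVec_smul, ← hΩ, mulVec_mulVec]
    congr 1
    rw [add_mul, mul_add, hc]
  obtain ⟨e2, he2⟩ : ∃ e2 : ℂ, K2 *ᵥ Ω = e2 • Ω := by
    apply hsimple
    rw [mulVec_mulVec, ← mulVec_smul, ← hΩ, mulVec_mulVec]
    congr 1
    rw [add_mul, mul_add, hc]
  have hE : e1 + e2 = E := by
    have : (e1 + e2 - E) • Ω = 0 := by
      rw [sub_smul, add_smul, ← he1, ← he2, ← hΩ, add_mulVec, sub_self]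
    rcases smul_eq_zero.1 this with h | h
    · exact sub_eq_zero.1 h
    · exact absurd h h0
  obtain ⟨p1, hp1, hp1'⟩ := exists_spectral_poly h1 he1 h0
  obtain ⟨p2, hp2, hp2'⟩ := exists_spectral_poly h2 he2 h0
  have hcomm : K2 * aeval K1 p1 = aeval K1 p1 * K2 := by
    refine aeval_induction (fun M => K2 * M = M * K2) (by simp) ?_ ?_ ?_ K1 hc.symm p1
    · intro a b ha hb; rw [mul_add, add_mul, ha, hb]
    · intro a b ha hb; rw [← mul_assoc, ha, mul_assoc, hb, mul_assoc]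
    · intro c a ha; rw [mul_smul_comm, smul_mul_assoc, ha]
  have hQ : ∀ ψ : n → ℂ, ∃ c : ℂ, aeval K1 p1 *ᵥ (aeval K2 p2 *ᵥ ψ) = c • Ω := by
    intro ψ
    apply hsimple
    have hK2 : K2 *ᵥ (aeval K1 p1 *ᵥ (aeval K2 p2 *ᵥ ψ))
        = e2 • (aeval K1 p1 *ᵥ (aeval K2 p2 *ᵥ ψ)) := by
      rw [mulVec_mulVec _ K2, hcomm, ← mulVec_mulVec, hp2', mulVec_smul]
    rw [add_mulVec, hp1', hK2, ← add_smul, hE]
  have hQΩ : aeval K1 p1 *ᵥ (aeval K2 p2 *ᵥ Ω) = Ω := by rw [hp2, hp1]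
  -- some column of the product is nonzero
  obtain ⟨τ0, hτ0⟩ : ∃ τ0, Ω τ0 ≠ 0 := by
    by_contra hcon
    rw [not_exists] at hcon
    exact h0 (funext fun τ => not_not.1 (hcon τ))
  have hex : ∃ σ, (aeval K1 p1 * aeval K2 p2) τ0 σ ≠ 0 := by
    by_contra hcon
    rw [not_exists] at hcon
    apply hτ0
    have := congrFun hQΩ τ0
    rw [mulVec_mulVec] at this
    rw [← this]
    show ∑ σ, (aeval K1 p1 * aeval K2 p2) τ0 σ * Ω σ = 0
    exact Finset.sum_eq_zero fun σ _ => by rw [not_not.1 (hcon σ), zero_mul]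
  obtain ⟨σ, hσ⟩ := hex
  obtain ⟨c, hc'⟩ := hQ (Pi.single σ 1)
  have hcol : aeval K1 p1 *ᵥ (aeval K2 p2 *ᵥ Pi.single σ 1)
      = fun τ => (aeval K1 p1 * aeval K2 p2) τ σ := by
    rw [mulVec_mulVec]
    funext τ
    simp
  have hcne : c ≠ 0 := by
    intro hc0
    apply hσ
    have := congrFun hc' τ0
    rw [hcol, hc0, zero_smul] at this
    exact this
  refine ⟨p1, p2, σ, c⁻¹, ?_⟩
  have hcol2 : (aeval K2 p2 *ᵥ Pi.single σ 1) = fun τ => aeval K2 p2 τ σ := by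
    funext τ
    simp
  rw [mulVec_smul, ← hcol2, hc', smul_smul, inv_mul_cancel₀ hcne, one_smul]

end Vale.Agent.Lib.P356
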