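import Vale.Agent.Lib.P356.Defs
import Vale.Agent.Lib.P356.Spectral

namespace Vale.Agent.Lib.P356

open Matrix Polynomial

variable {L q : ℕ}

/-- `K` fixes the sites in `S`: its entries vanish unless the two configurations agree on `S`. -/
def Fixes (S : Site L → Prop) (K : Matrix (Config L q) (Config L q) ℂ) : Prop :=
  ∀ ρ σ, K ρ σ ≠ 0 → ∀ x, S x → ρ x = σ x

theorem Fixes.zero (S : Site L → Prop) : Fixes S (0 : Matrix (Config L q) (Config L q) ℂ) :=
  fun _ _ h => absurd rfl h

theorem Fixes.one (S : Site L → Prop) : Fixes S (1 : Matrix (Config L q) (Config L q) ℂ) := by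
  intro ρ σ h x _
  by_cases hρσ : ρ = σ
  · rw [hρσ]
  · exact absurd (Matrix.one_apply_ne hρσ) h

theorem Fixes.add {S : Site L → Prop} {K K' : Matrix (Config L q) (Config L q) ℂ}
    (h : Fixes S K) (h' : Fixes S K') : Fixes S (K + K') := by
  intro ρ σ hne x hx
  by_cases h1 : K ρ σ = 0
  · by_cases h2 : K' ρ σ = 0
    · exact absurd (by rw [Matrix.add_apply, h1, h2, add_zero]) hne
    · exact h' ρ σ h2 x hx
  · exact h ρ σ h1 x hx

theorem Fixes.smul {S : Site L → Prop} {K : Matrix (Config L q) (Config L q) ℂ} (c : ℂ)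
    (h : Fixes S K) : Fixes S (c • K) := by
  intro ρ σ hne x hx
  refine h ρ σ (fun h0 => hne ?_) x hx
  rw [Matrix.smul_apply, h0, smul_zero]

theorem Fixes.mul {S : Site L → Prop} {K K' : Matrix (Config L q) (Config L q) ℂ}
    (h : Fixes S K) (h' : Fixes S K') : Fixes S (K * K') := by
  intro ρ σ hne x hx
  rw [Matrix.mul_apply] at hne
  obtain ⟨τ, -, hτ⟩ := Finset.exists_ne_zero_of_sum_ne_zero hne
  have h1 := left_ne_zero_of_mul hτ
  have h2 := right_ne_zero_of_mul hτ
  rw [h ρ τ h1 x hx, h' τ σ h2 x hx]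

theorem Fixes.sum {S : Site L → Prop} {ι : Type} (s : Finset ι)
    (f : ι → Matrix (Config L q) (Config L q) ℂ) (h : ∀ i ∈ s, Fixes S (f i)) :
    Fixes S (∑ i ∈ s, f i) := by
  classical
  induction s using Finset.induction_on with
  | empty => rw [Finset.sum_empty]; exact Fixes.zero S
  | insert a s ha ih =>
    rw [Finset.sum_insert ha]
    exact (h a (Finset.mem_insert_self a s)).add
      (ih fun i hi => h i (Finset.mem_insert_of_mem hi))

theorem Fixes.aeval {S : Site L → Prop} {K : Matrix (Config L q) (Config L q) ℂ}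
    (h : Fixes S K) (p : ℂ[X]) : Fixes S (aeval K p) :=
  aeval_induction (Fixes S) (Fixes.one S) (fun _ _ => Fixes.add) (fun _ _ => Fixes.mul)
    (fun c _ => Fixes.smul c) K h p

theorem ActsOn.fixes {X : Finset (Site L)} {K : Matrix (Config L q) (Config L q) ℂ}
    (h : ActsOn X K) (S : Site L → Prop) (hS : ∀ x, S x → x ∉ X) : Fixes S K := by
  obtain ⟨k, hk⟩ := h
  intro ρ σ hne x hx
  rw [hk] at hne
  by_contra hcon
  apply hne
  rw [if_neg]
  intro hall
  exact hcon (hall x (hS x hx))

/-- The operator `k ⊗ 1` on the whole box, for a matrix `k` on the configurations of `X`. -/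
def embed (X : Finset (Site L)) (k : Matrix (X → Fin q) (X → Fin q) ℂ) :
    Matrix (Config L q) (Config L q) ℂ :=
  fun σ τ => if ∀ x, x ∉ X → σ x = τ x then k (fun x => σ x) (fun x => τ x) else 0

theorem actsOn_iff {X : Finset (Site L)} {K : Matrix (Config L q) (Config L q) ℂ} :
    ActsOn X K ↔ ∃ k, K = embed X k := by
  constructor
  · rintro ⟨k, hk⟩
    exact ⟨k, Matrix.ext fun σ τ => hk σ τ⟩
  · rintro ⟨k, rfl⟩
    exact ⟨k, fun σ τ => rfl⟩

/-- The configuration equal to `r` on `X` and to `σ` elsewhere. -/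
def patch (X : Finset (Site L)) (r : X → Fin q) (σ : Config L q) : Config L q :=
  fun x => if h : x ∈ X then r ⟨x, h⟩ else σ x

theorem patch_of_not_mem {X : Finset (Site L)} (r : X → Fin q) (σ : Config L q) {x : Site L}
    (hx : x ∉ X) : patch X r σ x = σ x := by
  unfold patch
  rw [dif_neg hx]

theorem patch_restrict (X : Finset (Site L)) (r : X → Fin q) (σ : Config L q) :
    (fun x : X => patch X r σ x) = r := by
  funext x
  unfold patch
  rw [dif_pos x.2]

theorem sum_agree (X : Finset (Site L)) (σ : Config L q) (G : Config L q → ℂ) :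
    ∑ τ, (if ∀ x, x ∉ X → σ x = τ x then G τ else 0) = ∑ r : X → Fin q, G (patch X r σ) := by
  rw [← Finset.sum_filter]
  refine Finset.sum_nbij' (fun τ => fun x : X => τ x) (fun r => patch X r σ) ?_ ?_ ?_ ?_ ?_
  · intro τ _
    exact Finset.mem_univ _
  · intro r _
    rw [Finset.mem_filter]
    exact ⟨Finset.mem_univ _, fun x hx => (patch_of_not_mem r σ hx).symm⟩
  · intro τ hτ
    rw [Finset.mem_filter] at hτ
    funext x
    by_cases hx : x ∈ X
    · unfold patch
      rw [dif_pos hx]
    · rw [patch_of_not_mem _ _ hx]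
      exact hτ.2 x hx
  · intro r _
    exact patch_restrict X r σ
  · intro τ hτ
    rw [Finset.mem_filter] at hτ
    congr 1
    funext x
    by_cases hx : x ∈ X
    · unfold patch
      rw [dif_pos hx]
    · rw [patch_of_not_mem _ _ hx]
      exact (hτ.2 x hx).symm

theorem embed_one (X : Finset (Site L)) :
    embed X (1 : Matrix (X → Fin q) (X → Fin q) ℂ) = 1 := by
  ext σ τ
  unfold embed
  by_cases h : σ = τ
  · subst h
    simp
  · rw [Matrix.one_apply_ne h]
    split_ifs with h1
    · apply Matrix.one_apply_ne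
      intro h2
      apply h
      funext x
      by_cases hx : x ∈ X
      · exact congrFun h2 ⟨x, hx⟩
      · exact h1 x hx
    · rfl

theorem embed_add (X : Finset (Site L)) (k k' : Matrix (X → Fin q) (X → Fin q) ℂ) :
    embed X (k + k') = embed X k + embed X k' := by
  ext σ τ
  rw [Matrix.add_apply]
  unfold embed
  split_ifs <;> simp

theorem embed_smul (X : Finset (Site L)) (c : ℂ) (k : Matrix (X → Fin q) (X → Fin q) ℂ) :
    embed X (c • k) = c • embed X k := by
  ext σ τ
  rw [Matrix.smul_apply]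
  unfold embed
  split_ifs <;> simp

theorem embed_mul (X : Finset (Site L)) (k k' : Matrix (X → Fin q) (X → Fin q) ℂ) :
    embed X (k * k') = embed X k * embed X k' := by
  ext σ τ
  rw [Matrix.mul_apply]
  have h1 : ∀ ρ, embed X k σ ρ * embed X k' ρ τ
      = if ∀ x, x ∉ X → σ x = ρ x then
          k (fun x => σ x) (fun x => ρ x) * embed X k' ρ τ else 0 := by
    intro ρ
    by_cases hρ : ∀ x, x ∉ X → σ x = ρ x
    · rw [if_pos hρ]
      congr 1
      unfold embed
      rw [if_pos hρ]
    · rw [if_neg hρ]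
      have : embed X k σ ρ = 0 := by
        unfold embed
        rw [if_neg hρ]
      rw [this, zero_mul]
  rw [Finset.sum_congr rfl (fun ρ _ => h1 ρ),
    sum_agree X σ (fun ρ => k (fun x => σ x) (fun x => ρ x) * embed X k' ρ τ)]
  by_cases hστ : ∀ x, x ∉ X → σ x = τ x
  · have h2 : embed X (k * k') σ τ = (k * k') (fun x => σ x) (fun x => τ x) := by
      unfold embed
      rw [if_pos hστ]
    rw [h2, Matrix.mul_apply]
    refine Finset.sum_congr rfl fun r _ => ?_
    have h3 : embed X k' (patch X r σ) τ = k' r (fun x => τ x) := by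
      unfold embed
      rw [if_pos (fun x hx => by rw [patch_of_not_mem r σ hx]; exact hστ x hx),
        patch_restrict]
    rw [h3, patch_restrict]
  · have h2 : embed X (k * k') σ τ = 0 := by
      unfold embed
      rw [if_neg hστ]
    rw [h2]
    refine (Finset.sum_eq_zero fun r _ => ?_).symm
    have h3 : embed X k' (patch X r σ) τ = 0 := by
      unfold embed
      rw [if_neg]
      intro hall
      exact hστ fun x hx => by rw [← hall x hx, patch_of_not_mem r σ hx]
    rw [h3, mul_zero]

theorem ActsOn.zero (X : Finset (Site L)) :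
    ActsOn X (0 : Matrix (Config L q) (Config L q) ℂ) :=
  ⟨0, fun σ τ => by simp⟩

theorem ActsOn.one (X : Finset (Site L)) :
    ActsOn X (1 : Matrix (Config L q) (Config L q) ℂ) :=
  actsOn_iff.2 ⟨1, (embed_one X).symm⟩

theorem ActsOn.add {X : Finset (Site L)} {K K' : Matrix (Config L q) (Config L q) ℂ}
    (h : ActsOn X K) (h' : ActsOn X K') : ActsOn X (K + K') := by
  obtain ⟨k, rfl⟩ := actsOn_iff.1 h
  obtain ⟨k', rfl⟩ := actsOn_iff.1 h'
  exact actsOn_iff.2 ⟨k + k', (embed_add X k k').symm⟩

theorem ActsOn.smul {X : Finset (Site L)} {K : Matrix (Config L q) (Config L q) ℂ} (c : ℂ)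
    (h : ActsOn X K) : ActsOn X (c • K) := by
  obtain ⟨k, rfl⟩ := actsOn_iff.1 h
  exact actsOn_iff.2 ⟨c • k, (embed_smul X c k).symm⟩

theorem ActsOn.mul {X : Finset (Site L)} {K K' : Matrix (Config L q) (Config L q) ℂ}
    (h : ActsOn X K) (h' : ActsOn X K') : ActsOn X (K * K') := by
  obtain ⟨k, rfl⟩ := actsOn_iff.1 h
  obtain ⟨k', rfl⟩ := actsOn_iff.1 h'
  exact actsOn_iff.2 ⟨k * k', (embed_mul X k k').symm⟩

theorem ActsOn.sum {X : Finset (Site L)} {ι : Type} (s : Finset ι)
    (f : ι → Matrix (Config L q) (Config L q) ℂ) (h : ∀ i ∈ s, ActsOn X (f i)) :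
    ActsOn X (∑ i ∈ s, f i) := by
  classical
  induction s using Finset.induction_on with
  | empty => rw [Finset.sum_empty]; exact ActsOn.zero X
  | insert a s ha ih =>
    rw [Finset.sum_insert ha]
    exact (h a (Finset.mem_insert_self a s)).add
      (ih fun i hi => h i (Finset.mem_insert_of_mem hi))

theorem ActsOn.aeval {X : Finset (Site L)} {K : Matrix (Config L q) (Config L q) ℂ}
    (h : ActsOn X K) (p : ℂ[X]) : ActsOn X (aeval K p) :=
  aeval_induction (ActsOn X) (ActsOn.one X) (fun _ _ => ActsOn.add) (fun _ _ => ActsOn.mul)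
    (fun c _ => ActsOn.smul c) K h p

theorem ActsOn.mono {X Y : Finset (Site L)} (hXY : X ⊆ Y)
    {K : Matrix (Config L q) (Config L q) ℂ} (h : ActsOn X K) : ActsOn Y K := by
  obtain ⟨k, hk⟩ := h
  refine ⟨fun s t => if ∀ y : Y, y.1 ∉ X → s y = t y then
    k (fun x => s ⟨x.1, hXY x.2⟩) (fun x => t ⟨x.1, hXY x.2⟩) else 0, fun σ τ => ?_⟩
  rw [hk]
  beta_reduce
  by_cases h1 : ∀ x, x ∉ X → σ x = τ x
  · rw [if_pos h1, if_pos (fun x hx => h1 x (fun hxX => hx (hXY hxX))),
      if_pos (fun (y : Y) (hy : y.1 ∉ X) => h1 y.1 hy)]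
  · rw [if_neg h1]
    by_cases h2 : ∀ x, x ∉ Y → σ x = τ x
    · rw [if_pos h2, if_neg]
      intro hall
      apply h1
      intro x hx
      by_cases hxY : x ∈ Y
      · exact hall ⟨x, hxY⟩ hx
      · exact h2 x hxY
    · rw [if_neg h2]

/-- The coefficient matrix of a vector with respect to the cut `A | complement of A`. -/
def toMat (A : Finset (Site L)) (v : Config L q → ℂ) :
    Matrix ({x // x ∈ A} → Fin q) ({x // x ∉ A} → Fin q) ℂ :=
  fun a b => v (glue A a b)

theorem glue_restrict (A : Finset (Site L)) (a : {x // x ∈ A} → Fin q)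
    (b : {x // x ∉ A} → Fin q) : (fun x : A => glue A a b x) = a := by
  funext x
  unfold glue
  rw [dif_pos x.2]

theorem patch_glue (A : Finset (Site L)) (r a : {x // x ∈ A} → Fin q)
    (b : {x // x ∉ A} → Fin q) : patch A r (glue A a b) = glue A r b := by
  funext x
  unfold patch glue
  by_cases hx : x ∈ A
  · rw [dif_pos hx, dif_pos hx]
  · rw [dif_neg hx, dif_neg hx, dif_neg hx]

theorem toMat_embed_mulVec (A : Finset (Site L)) (k : Matrix (A → Fin q) (A → Fin q) ℂ)
    (v : Config L q → ℂ) : toMat A (embed A k *ᵥ v) = k * toMat A v := by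
  ext a b
  rw [Matrix.mul_apply]
  show ∑ τ, embed A k (glue A a b) τ * v τ = _
  have h1 : ∀ τ, embed A k (glue A a b) τ * v τ
      = if ∀ x, x ∉ A → glue A a b x = τ x then
          k (fun x => glue A a b x) (fun x => τ x) * v τ else 0 := by
    intro τ
    by_cases hτ : ∀ x, x ∉ A → glue A a b x = τ x
    · rw [if_pos hτ]
      congr 1
      unfold embed
      rw [if_pos hτ]
    · rw [if_neg hτ]
      have : embed A k (glue A a b) τ = 0 := by
        unfold embed
        rw [if_neg hτ]
      rw [this, zero_mul]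
  rw [Finset.sum_congr rfl (fun τ _ => h1 τ),
    sum_agree A (glue A a b) (fun τ => k (fun x => glue A a b x) (fun x => τ x) * v τ)]
  refine Finset.sum_congr rfl fun r _ => ?_
  rw [patch_restrict, glue_restrict, patch_glue]
  rfl

theorem rank_le_card_of_rows {m n : Type} [Fintype m] [DecidableEq m] [Fintype n]
    (M : Matrix m n ℂ) (p : m → Prop) [DecidablePred p] (hM : ∀ a, ¬ p a → ∀ b, M a b = 0) :
    M.rank ≤ Fintype.card {a // p a} := by
  have h1 : M = Matrix.diagonal (fun a => if p a then (1 : ℂ) else 0) * M := by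
    ext a b
    rw [Matrix.diagonal_mul]
    by_cases ha : p a
    · rw [if_pos ha, one_mul]
    · rw [if_neg ha, zero_mul, hM a ha b]
  have h2 : (Matrix.diagonal (fun a => if p a then (1 : ℂ) else 0)).rank
      = Fintype.card {a // p a} := by
    rw [Matrix.rank_diagonal]
    refine Fintype.card_congr (Equiv.subtypeEquivRight fun a => ?_)
    by_cases ha : p a <;> simp [ha]
  calc M.rank = (Matrix.diagonal (fun a => if p a then (1 : ℂ) else 0) * M).rank := by rw [← h1]
    _ ≤ (Matrix.diagonal (fun a => if p a then (1 : ℂ) else 0)).rank :=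
      Matrix.rank_mul_le_left _ _
    _ = Fintype.card {a // p a} := h2

theorem rank_toMat_le (A T : Finset (Site L)) (hT : T ⊆ A) (σ : Config L q)
    (w : Config L q → ℂ) (hw : ∀ τ, w τ ≠ 0 → ∀ x, x ∈ A → x ∉ T → τ x = σ x) :
    (toMat A w).rank ≤ q ^ T.card := by
  classical
  refine (rank_le_card_of_rows (toMat A w)
    (fun a : {x // x ∈ A} → Fin q => ∀ x : {x // x ∈ A}, x.1 ∉ T → a x = σ x.1) ?_).trans ?_
  · intro a ha b
    by_contra hne
    apply ha
    intro x hx
    have := hw (glue A a b) hne x.1 x.2 hx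
    rw [← this]
    unfold glue
    rw [dif_pos x.2]
  · have hinj : Function.Injective
        (fun (a : {a : {x // x ∈ A} → Fin q // ∀ x : {x // x ∈ A}, x.1 ∉ T → a x = σ x.1})
          (t : T) => a.1 ⟨t.1, hT t.2⟩) := by
      intro a a' haa'
      apply Subtype.ext
      funext x
      by_cases hx : x.1 ∈ T
      · exact congrFun haa' ⟨x.1, hx⟩
      · rw [a.2 x hx, a'.2 x hx]
    have := Fintype.card_le_of_injective _ hinj
    rw [Fintype.card_fun, Fintype.card_coe, Fintype.card_fin] at this
    exact this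

end Vale.Agent.Lib.P356
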