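import Vale.Agent.Lib.P356.Local
import Vale.Agent.Lib.P356.Entropy
import Vale.Agent.Lib.P356.Boundary

namespace Vale.Agent.Lib.P356

open Matrix Polynomial

variable {L q : ℕ}

theorem reducedDensity_eq (A : Finset (Site L)) (Ω : Config L q → ℂ) :
    reducedDensity A Ω = toMat A Ω * (toMat A Ω)ᴴ := by
  ext a a'
  rw [Matrix.mul_apply]
  rfl

theorem sum_toMat_norm (A : Finset (Site L)) (Ω : Config L q → ℂ) :
    ∑ a, ∑ b, ‖toMat A Ω a b‖ ^ 2 = ∑ σ, ‖Ω σ‖ ^ 2 := by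
  rw [← Fintype.sum_prod_type']
  exact Fintype.sum_equiv
    (Equiv.piEquivPiSubtypeProd (fun x => x ∈ A) (fun _ : Site L => Fin q)).symm _ _
    (fun p => rfl)

/-- Area law for a region `A` whose restricted Hamiltonian `H_A` commutes with `H`. -/
theorem area_law_of_region_commute (R : ℕ)
    (h : Finset (Site L) → Matrix (Config L q) (Config L q) ℂ)
    (hherm : ∀ X, (h X).IsHermitian) (hact : ∀ X, ActsOn X (h X))
    (hrange : ∀ X, (∃ x ∈ X, ∃ y ∈ X, R < dist1 x y) → h X = 0)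
    (A : Finset (Site L))
    (hcomm : (∑ X ∈ Finset.univ.filter (fun X => X ⊆ A), h X) * (∑ X, h X)
      = (∑ X, h X) * (∑ X ∈ Finset.univ.filter (fun X => X ⊆ A), h X))
    (E : ℂ) (Ω : Config L q → ℂ) (hΩ : (∑ X, h X) *ᵥ Ω = E • Ω)
    (hnorm : ∑ σ, ‖Ω σ‖ ^ 2 = 1)
    (hsimple : ∀ ψ : Config L q → ℂ, (∑ X, h X) *ᵥ ψ = E • ψ → ∃ c : ℂ, ψ = c • Ω) :
    ∃ hρ : (reducedDensity A Ω).IsHermitian, ∑ i, Real.negMulLog (hρ.eigenvalues i)
      ≤ (2 * (R : ℝ) - 1) ^ 2 * Real.log q * (edgeBoundary A).card := by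
  classical
  have hsum : (∑ X ∈ Finset.univ.filter (fun X => X ⊆ A), h X)
      + (∑ X ∈ Finset.univ.filter (fun X => ¬ X ⊆ A), h X) = ∑ X, h X :=
    Finset.sum_filter_add_sum_filter_not _ _ _
  generalize hK1 : (∑ X ∈ Finset.univ.filter (fun X => X ⊆ A), h X) = K1 at hsum hcomm
  generalize hK2 : (∑ X ∈ Finset.univ.filter (fun X => ¬ X ⊆ A), h X) = K2 at hsum
  have hTA : (Finset.univ.filter fun y : Site L => y ∈ A ∧ ∃ z, z ∉ A ∧ dist1 y z ≤ R) ⊆ A :=
    fun y hy => (Finset.mem_filter.1 hy).2.1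
  generalize hT : (Finset.univ.filter fun y : Site L => y ∈ A ∧ ∃ z, z ∉ A ∧ dist1 y z ≤ R)
    = T at hTA
  have h1 : K1.IsHermitian := by
    unfold Matrix.IsHermitian
    rw [← hK1, Matrix.conjTranspose_sum]
    exact Finset.sum_congr rfl fun X _ => (hherm X).eq
  have h2 : K2.IsHermitian := by
    unfold Matrix.IsHermitian
    rw [← hK2, Matrix.conjTranspose_sum]
    exact Finset.sum_congr rfl fun X _ => (hherm X).eq
  have hc : K1 * K2 = K2 * K1 := by
    rw [← hsum, mul_add, add_mul] at hcomm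
    exact add_left_cancel hcomm
  have hA1 : ActsOn A K1 := by
    rw [← hK1]
    exact ActsOn.sum _ _ fun X hX => (hact X).mono (Finset.mem_filter.1 hX).2
  have hF2 : Fixes (fun x => x ∈ A ∧ x ∉ T) K2 := by
    rw [← hK2]
    refine Fixes.sum _ _ fun X hX => ?_
    have hXA : ¬ X ⊆ A := (Finset.mem_filter.1 hX).2
    by_cases h0 : h X = 0
    · rw [h0]
      exact Fixes.zero _
    · refine (hact X).fixes _ ?_
      rintro x ⟨hxA, hxT⟩ hxX
      apply hxT
      obtain ⟨z, hzX, hzA⟩ := Finset.not_subset.1 hXA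
      rw [← hT, Finset.mem_filter]
      refine ⟨Finset.mem_univ _, hxA, z, hzA, ?_⟩
      by_contra hlt
      exact h0 (hrange X ⟨x, hxX, z, hzX, not_le.1 hlt⟩)
  have h0 : Ω ≠ 0 := by
    rintro rfl
    simp at hnorm
  rw [← hsum] at hΩ hsimple
  obtain ⟨p1, p2, σ, c, hform⟩ := exists_product_form h1 h2 hc hΩ h0 hsimple
  obtain ⟨k, hk⟩ := actsOn_iff.1 (hA1.aeval p1)
  have hrank : (toMat A Ω).rank ≤ q ^ T.card := by
    rw [hform, hk, toMat_embed_mulVec]
    refine (Matrix.rank_mul_le_right _ _).trans ?_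
    refine rank_toMat_le A T hTA σ _ ?_
    intro τ hτ x hxA hxT
    have hne : aeval K2 p2 τ σ ≠ 0 := by
      intro hz
      apply hτ
      rw [Pi.smul_apply, hz, smul_zero]
    exact (hF2.aeval p2) τ σ hne x ⟨hxA, hxT⟩
  have hlog : Real.log ((q ^ T.card : ℕ) : ℝ) = T.card * Real.log q := by
    rw [Nat.cast_pow, Real.log_pow]
  have hcard := card_inner_layer_le R A
  rw [hT] at hcard
  have hq : 0 ≤ Real.log q := Real.log_natCast_nonneg q
  rw [reducedDensity_eq]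
  obtain ⟨hρ, hent⟩ :=
    entropy_mul_conjTranspose_le (toMat A Ω) (by rw [sum_toMat_norm, hnorm]) _ hrank
  refine ⟨hρ, ?_⟩
  calc ∑ i, Real.negMulLog (hρ.eigenvalues i) ≤ T.card * Real.log q := by
        rw [← hlog]; exact hent
    _ ≤ ((2 * (R : ℝ) - 1) ^ 2 * (edgeBoundary A).card) * Real.log q :=
        mul_le_mul_of_nonneg_right hcard hq
    _ = (2 * (R : ℝ) - 1) ^ 2 * Real.log q * (edgeBoundary A).card := by ring

/-- Area law for commuting finite-range Hamiltonians. -/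
theorem area_law_of_commuting (q L R : ℕ)
    (h : Finset (Site L) → Matrix (Config L q) (Config L q) ℂ)
    (hherm : ∀ X, (h X).IsHermitian) (hact : ∀ X, ActsOn X (h X))
    (hrange : ∀ X, (∃ x ∈ X, ∃ y ∈ X, R < dist1 x y) → h X = 0)
    (hcomm : ∀ X Y, h X * h Y = h Y * h X)
    (E : ℂ) (Ω : Config L q → ℂ) (hΩ : (∑ X, h X) *ᵥ Ω = E • Ω)
    (hnorm : ∑ σ, ‖Ω σ‖ ^ 2 = 1)
    (hsimple : ∀ ψ : Config L q → ℂ, (∑ X, h X) *ᵥ ψ = E • ψ → ∃ c : ℂ, ψ = c • Ω)
    (A : Finset (Site L)) :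
    ∃ hρ : (reducedDensity A Ω).IsHermitian, ∑ i, Real.negMulLog (hρ.eigenvalues i)
      ≤ (2 * (R : ℝ) - 1) ^ 2 * Real.log q * (edgeBoundary A).card := by
  refine area_law_of_region_commute R h hherm hact hrange A ?_ E Ω hΩ hnorm hsimple
  exact (Commute.sum_left _ _ _ fun X _ => Commute.sum_right _ _ _ fun Y _ => hcomm X Y).eq

end Vale.Agent.Lib.P356
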